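import Mathlib

namespace Vale.Agent.Results.P192.FewRelators

universe u v

/-- The homomorphism from the free group on `α` to the integers (written multiplicatively)
that sends the generator `a` to `t a`. -/
def weight {α : Type u} (t : α → ℤ) : FreeGroup α →* Multiplicative ℤ :=
  FreeGroup.lift (fun a => Multiplicative.ofAdd (t a))

theorem weight_of {α : Type u} (t : α → ℤ) (a : α) :
    weight t (FreeGroup.of a) = Multiplicative.ofAdd (t a) := by
  simp [weight]

theorem weight_zero {α : Type u} (w : FreeGroup α) : weight (0 : α → ℤ) w = 1 := by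
  have h : weight (0 : α → ℤ) = 1 := by
    apply FreeGroup.ext_hom
    intro a
    simp [weight_of]
  rw [h]
  rfl

theorem weight_add {α : Type u} (t s : α → ℤ) (w : FreeGroup α) :
    weight (t + s) w = weight t w * weight s w := by
  have h : weight (t + s) = weight t * weight s := by
    apply FreeGroup.ext_hom
    intro a
    simp [weight_of, ofAdd_add]
  rw [h]
  rfl

/-- Fewer relators than generators: some nonzero integer weight vector kills every relator. -/
theorem exists_weight {α : Type u} [Fintype α] (rels : Set (FreeGroup α)) (hfin : rels.Finite)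
    (hlt : rels.ncard < Fintype.card α) :
    ∃ t : α → ℤ, t ≠ 0 ∧ ∀ r ∈ rels, weight t r = 1 := by
  classical
  have : Fintype rels := hfin.fintype
  let F : (α → ℤ) →+ (rels → ℤ) :=
    { toFun := fun t r => Multiplicative.toAdd (weight t r.1)
      map_zero' := by
        funext r
        simp [weight_zero]
      map_add' := by
        intro t s
        funext r
        simp [weight_add] }
  have hni : ¬ Function.Injective F.toIntLinearMap := by
    intro hinj
    have h1 : Fintype.card α ≤ Fintype.card rels := card_le_of_injective ℤ F.toIntLinearMap hinj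
    have h2 : rels.ncard = Fintype.card rels := by
      rw [← Set.toFinset_card, Set.ncard_eq_toFinset_card']
    omega
  rw [Function.not_injective_iff] at hni
  obtain ⟨x, y, hxy, hne⟩ := hni
  refine ⟨x - y, sub_ne_zero.mpr hne, fun r hr => ?_⟩
  have h3 : F (x - y) = 0 := by
    rw [map_sub]
    exact sub_eq_zero.mpr hxy
  have h4 : F (x - y) ⟨r, hr⟩ = 0 := by
    rw [h3]
    rfl
  have h5 : Multiplicative.toAdd (weight (x - y) r) = 0 := h4
  exact toAdd_eq_zero.mp h5

/-- Fewer relators than generators: the presented group has an element of infinite order. -/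
theorem exists_not_isOfFinOrder {α : Type u} [Fintype α] (rels : Set (FreeGroup α))
    (hfin : rels.Finite) (hlt : rels.ncard < Fintype.card α) :
    ∃ g : PresentedGroup rels, ¬ IsOfFinOrder g := by
  obtain ⟨t, ht0, ht⟩ := exists_weight rels hfin hlt
  have hex : ∃ a, t a ≠ 0 := by
    by_contra hcon
    push Not at hcon
    exact ht0 (funext hcon)
  obtain ⟨a, ha⟩ := hex
  have hrel : ∀ r ∈ rels, FreeGroup.lift (fun a => Multiplicative.ofAdd (t a)) r = 1 :=
    fun r hr => ht r hr
  refine ⟨PresentedGroup.of a, fun hfo => ?_⟩
  have h1 : IsOfFinOrder ((PresentedGroup.toGroup hrel) (PresentedGroup.of a)) :=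
    (PresentedGroup.toGroup hrel).isOfFinOrder hfo
  rw [PresentedGroup.toGroup.of] at h1
  have h2 : Multiplicative.ofAdd (t a) = 1 := (isOfFinOrder_iff_eq_one _).mp h1
  exact ha (ofAdd_eq_one.mp h2)

/-- **Periodic groups have nonpositive deficiency.**  Let `⟨α | rels⟩` be a presentation with
finitely many generators and finitely many relators.  (1) If there are fewer relators than
generators, the presented group has an element of infinite order.  (2) Hence every periodic
group `G` isomorphic to `⟨α | rels⟩` needs at least as many relators as generators. -/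
theorem result {α : Type u} [Fintype α] (rels : Set (FreeGroup α)) (hfin : rels.Finite) :
    (rels.ncard < Fintype.card α → ∃ g : PresentedGroup rels, ¬ IsOfFinOrder g) ∧
    (∀ (G : Type v) [Group G], Nonempty (G ≃* PresentedGroup rels) →
      (∀ g : G, IsOfFinOrder g) → Fintype.card α ≤ rels.ncard) := by
  refine ⟨exists_not_isOfFinOrder rels hfin, ?_⟩
  intro G _ hiso hper
  obtain ⟨e⟩ := hiso
  by_contra hcon
  push Not at hcon
  obtain ⟨g, hg⟩ := exists_not_isOfFinOrder rels hfin hcon
  apply hg
  have h1 : IsOfFinOrder (e.toMonoidHom (e.symm g)) := e.toMonoidHom.isOfFinOrder (hper (e.symm g))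
  simpa using h1

end Vale.Agent.Results.P192.FewRelators
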