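import Mathlib

namespace Vale.Agent.Results.P192.Solvable

universe u

theorem map_derivedSeries_commutator_le (G : Type u) [Group G] (n : ℕ) :
    (derivedSeries (commutator G) n).map (commutator G).subtype ≤ derivedSeries G (n + 1) := by
  induction n with
  | zero =>
    rw [derivedSeries_zero, ← MonoidHom.range_eq_map, Subgroup.range_subtype, derivedSeries_one]
  | succ n ih =>
    rw [derivedSeries_succ, Subgroup.map_commutator, derivedSeries_succ G (n + 1)]
    exact Subgroup.commutator_mono ih ih

theorem finite_of_derivedSeries_eq_bot (n : ℕ) :
    ∀ (G : Type u) [Group G] [Group.FG G], (∀ g : G, IsOfFinOrder g) →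
      derivedSeries G n = ⊥ → Finite G := by
  induction n with
  | zero =>
    intro G _ _ _ h
    rw [derivedSeries_zero] at h
    have hsub : Subsingleton G := by
      constructor
      intro a b
      have ha : a ∈ (⊤ : Subgroup G) := Subgroup.mem_top a
      have hb : b ∈ (⊤ : Subgroup G) := Subgroup.mem_top b
      rw [h, Subgroup.mem_bot] at ha hb
      rw [ha, hb]
    exact Finite.of_subsingleton
  | succ n ih =>
    intro G _ _ htors h
    -- the abelianization is finite
    have hsurj : Function.Surjective (Abelianization.of : G →* Abelianization G) :=
      QuotientGroup.mk_surjective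
    have hab_tors : IsMulTorsion (Abelianization G) :=
      IsMulTorsion.of_surjective (f := Abelianization.of) hsurj htors
    have hab_fg : Group.FG (Abelianization G) :=
      Group.fg_of_surjective (f := Abelianization.of) hsurj
    have hab_fin : Finite (Abelianization G) :=
      CommGroup.finite_of_fg_isMulTorsion (Abelianization G) hab_tors
    have hquot : Finite (G ⧸ commutator G) := hab_fin
    have hidx : (commutator G).FiniteIndex := Subgroup.finiteIndex_of_finite_quotient
    have hfg : Group.FG (commutator G) := Subgroup.fg_of_index_ne_zero (commutator G)
    have htors' : ∀ g : commutator G, IsOfFinOrder g :=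
      IsMulTorsion.subgroup htors (commutator G)
    have hbot : derivedSeries (commutator G) n = ⊥ := by
      have h1 := map_derivedSeries_commutator_le G n
      rw [h] at h1
      have h2 : (derivedSeries (commutator G) n).map (commutator G).subtype = ⊥ := le_bot_iff.mp h1
      exact (Subgroup.map_eq_bot_iff_of_injective _ (commutator G).subtype_injective).mp h2
    have hfin : Finite (commutator G) := ih (commutator G) htors' hbot
    exact Finite.of_equiv _ (Subgroup.groupEquivQuotientProdSubgroup (s := commutator G)).symm

/-- Every finitely generated periodic solvable group is finite. -/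
theorem result (G : Type u) [Group G] [Group.FG G] [Group.IsSolvable G]
    (hper : ∀ g : G, IsOfFinOrder g) : Finite G := by
  obtain ⟨n, hn⟩ := (Group.isSolvable_def G).mp inferInstance
  exact finite_of_derivedSeries_eq_bot n G hper hn

end Vale.Agent.Results.P192.Solvable
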